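import Vale.Agent.P358.Main

/-! P358: the classical capacity of the amplitude damping channel (`ν = 0`) equals its Holevo
capacity; the Holevo capacity of the tensor powers is additive. -/

namespace Vale.Agent.Results.P358.AmplitudeDamping

open Vale.Agent.P358

theorem result (γ : ℝ) (h0 : 0 ≤ γ) (h1 : γ ≤ 1) :
    (∀ n : ℕ, BddAbove (holevoSet (gpow γ 0 n))) ∧
    BddAbove (holevoSet (gadc γ 0)) ∧
    (∀ n : ℕ, chi (gpow γ 0 n) = n * chi (gadc γ 0)) ∧
    capacity γ 0 = chi (gadc γ 0) := by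
  obtain ⟨k1, k2, k3⟩ := main_thm γ h0 h1
  refine ⟨k1, ?_, k2, k3⟩
  obtain ⟨c, hc⟩ := bdd_gadc γ h0 h1
  rw [holevoSet_eq]
  refine ⟨c / Real.log 2, ?_⟩
  rintro _ ⟨r, hr, rfl⟩
  exact div_le_div_of_nonneg_right (hc hr) (Real.log_nonneg (by norm_num))

end Vale.Agent.Results.P358.AmplitudeDamping
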