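import Vale.Agent.P358.MainG

/-! P358: for all parameters, the Holevo capacity of the tensor powers of the generalized
amplitude damping channel is additive and the classical capacity equals the Holevo capacity. -/

namespace Vale.Agent.Results.P358.GeneralCapacity

open Vale.Agent.P358

theorem result (γ ν : ℝ) (h0 : 0 ≤ γ) (h1 : γ ≤ 1) (n0 : 0 ≤ ν) (n1 : ν ≤ 1) :
    (∀ n : ℕ, BddAbove (holevoSet (gpow γ ν n))) ∧
    BddAbove (holevoSet (gadc γ ν)) ∧
    (∀ n : ℕ, chi (gpow γ ν n) = n * chi (gadc γ ν)) ∧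
    capacity γ ν = chi (gadc γ ν) :=
  main_all h0 h1 n0 n1

end Vale.Agent.Results.P358.GeneralCapacity
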